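import Vale.Agent.Lib.P045.H27.Degree

/-- Ryser's inequality `tau <= (r - 1) nu` for `r`-partite `r`-uniform hypergraphs in which every
vertex lies in at most three edges (`r >= 6`), or in at most two edges (`r >= 3`): there are a
matching `M` and a vertex cover `C` with `|C| <= (r - 1) |M|`. -/
theorem Vale.Agent.Results.P045.H27_BoundedDegree.result {V : Type*} [DecidableEq V] (r : ℕ)
    (H : Finset (Finset V)) (part : V → Fin r)
    (hpart : ∀ e ∈ H, ∀ i : Fin r, ∃! v, v ∈ e ∧ part v = i)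
    (hdeg : (6 ≤ r ∧ ∀ v : V, (H.filter (fun e => v ∈ e)).card ≤ 3) ∨
            (3 ≤ r ∧ ∀ v : V, (H.filter (fun e => v ∈ e)).card ≤ 2)) :
    ∃ M ⊆ H, ∃ C : Finset V, (∀ e ∈ M, ∀ f ∈ M, e ≠ f → Disjoint e f) ∧
      (∀ e ∈ H, ∃ v ∈ C, v ∈ e) ∧ C.card ≤ (r - 1) * M.card :=
  Vale.Agent.Lib.P045.H27.ryser_bounded_degree r H part hpart hdeg
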