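import Vale.Agent.Lib.P045.H27.Criterion

/-- Ryser's inequality `tau <= (r - 1) nu` for `r`-partite `r`-uniform hypergraphs under a
condition on each single edge: writing `d v` for the number of edges containing `v`, it is
enough that every edge `e` satisfies
`(sum_{v in e} 1 / d v) * (1 + sum_{v in e} (d v - 1)) <= r (r - 1)`.  This holds when all
vertices of all edges lie in exactly `k` edges with `k + 1 <= r`, when every vertex lies in at
most three edges and `r >= 6`, and when every vertex lies in at most two edges and `r >= 3`. -/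
theorem Vale.Agent.Results.P045.H27_EdgeCriterion.result {V : Type*} [DecidableEq V] (r : ℕ)
    (H : Finset (Finset V)) (part : V → Fin r)
    (hpart : ∀ e ∈ H, ∀ i : Fin r, ∃! v, v ∈ e ∧ part v = i)
    (d : V → ℕ) (hd : ∀ v, d v = (H.filter (fun f => v ∈ f)).card)
    (hyp : (1 ≤ r ∧ ∀ e ∈ H, (∑ v ∈ e, (1 : ℚ) / (d v : ℚ)) * (1 + ∑ v ∈ e, ((d v : ℚ) - 1))
              ≤ (r : ℚ) * ((r : ℚ) - 1)) ∨
           (∃ k : ℕ, k + 1 ≤ r ∧ ∀ e ∈ H, ∀ v ∈ e, d v = k) ∨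
           (6 ≤ r ∧ ∀ v : V, d v ≤ 3) ∨
           (3 ≤ r ∧ ∀ v : V, d v ≤ 2)) :
    ∃ M ⊆ H, ∃ C : Finset V, (∀ e ∈ M, ∀ f ∈ M, e ≠ f → Disjoint e f) ∧
      (∀ e ∈ H, ∃ v ∈ C, v ∈ e) ∧ C.card ≤ (r - 1) * M.card := by
  rcases hyp with ⟨hr, hedge⟩ | ⟨k, hk, hreg⟩ | ⟨h6, h3⟩ | ⟨h3, h2⟩
  · exact Vale.Agent.Lib.P045.H27.ryser_of_edge_criterion r hr H part hpart d hd hedge
  · exact Vale.Agent.Lib.P045.H27.ryser_regular r H part hpart d hd k hk hreg
  · exact Vale.Agent.Lib.P045.H27.ryser_bounded_degree r H part hpart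
      (Or.inl ⟨h6, fun v => by rw [← hd v]; exact h3 v⟩)
  · exact Vale.Agent.Lib.P045.H27.ryser_bounded_degree r H part hpart
      (Or.inr ⟨h3, fun v => by rw [← hd v]; exact h2 v⟩)
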